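import Vale.Agent.P030.H641.Count

/-!
# The class count of one interval of classes

`A` = all classes outside `[x, x + M)`, where `x + y + M + (d - 1) p = D`: the rows of the interval
are `8 d M`, its columns at a group of height `N` at most `o M + (N - off - p o)` for every `o`.
-/

open Finset

namespace Vale.Agent.P030.H361

open Vale.Agent.P030.T Vale.Agent.P030.H641

/-! ### counting residues -/

theorem card_mod_ge {p x M N k : ℕ} (hp : 0 < p) (hx : x + M ≤ p) (hN : p * k + x + M ≤ N) :
    (k + 1) * M ≤ ((range N).filter fun b => x ≤ b % p ∧ b % p < x + M).card := by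
  have h1 : ((range (k + 1)) ×ˢ (range M)).card = (k + 1) * M := by
    rw [card_product, card_range, card_range]
  rw [← h1]
  refine Finset.card_le_card_of_injOn (fun a => p * a.1 + (x + a.2)) ?_ ?_
  · intro a ha
    rw [Finset.mem_coe, mem_product, mem_range, mem_range] at ha
    have h2 : (p * a.1 + (x + a.2)) % p = x + a.2 := by
      rw [Nat.mul_add_mod, Nat.mod_eq_of_lt (by omega)]
    have h3 : p * a.1 ≤ p * k := Nat.mul_le_mul_left p (by omega)
    change p * a.1 + (x + a.2) ∈ _
    rw [Finset.mem_coe, mem_filter, mem_range, h2]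
    omega
  · intro a ha b hb hab
    rw [Finset.mem_coe, mem_product, mem_range, mem_range] at ha hb
    have h2 : (p * a.1 + (x + a.2)) % p = x + a.2 := by
      rw [Nat.mul_add_mod, Nat.mod_eq_of_lt (by omega)]
    have h3 : (p * b.1 + (x + b.2)) % p = x + b.2 := by
      rw [Nat.mul_add_mod, Nat.mod_eq_of_lt (by omega)]
    simp only at hab
    have h4 : x + a.2 = x + b.2 := by rw [← h2, ← h3, hab]
    have h5 : p * a.1 = p * b.1 := by omega
    have h6 := Nat.eq_of_mul_eq_mul_left hp h5
    exact Prod.ext h6 (by omega)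

theorem card_mod_le {p x M : ℕ} (N o : ℕ) :
    ((range N).filter fun b => x ≤ b % p ∧ b % p < x + M).card ≤ o * M + (N - x - p * o) := by
  have h1 : ((range N).filter fun b => x ≤ b % p ∧ b % p < x + M)
      ⊆ (((range o) ×ˢ (range M)).image fun a => p * a.1 + (x + a.2)) ∪ Ico (x + p * o) N := by
    intro b hb
    rw [mem_filter, mem_range] at hb
    have h2 := Nat.div_add_mod b p
    rw [mem_union, mem_image, mem_Ico]
    by_cases ho : b / p < o
    · left
      refine ⟨(b / p, b % p - x), ?_, ?_⟩
      · rw [mem_product, mem_range, mem_range]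
        exact ⟨ho, by omega⟩
      · simp only
        omega
    · right
      have h3 : p * o ≤ p * (b / p) := Nat.mul_le_mul_left p (by omega)
      omega
  refine (card_le_card h1).trans ((card_union_le _ _).trans (Nat.add_le_add ?_ ?_))
  · refine card_image_le.trans ?_
    rw [card_product, card_range, card_range]
  · rw [Nat.card_Ico]
    omega

/-- the classes outside `[x, x + M)` -/
def Aset (p x M : ℕ) : Finset ℕ := (range p).filter fun i => ¬ (x ≤ i ∧ i < x + M)

theorem mem_Aset {p x M i : ℕ} (hi : i < p) : i ∈ Aset p x M ↔ ¬ (x ≤ i ∧ i < x + M) := by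
  unfold Aset
  rw [mem_filter, mem_range]
  exact ⟨fun h => h.2, fun h => ⟨hi, h⟩⟩

theorem card_row {p x M N k : ℕ} (hp : 0 < p) (hx : x + M ≤ p) (hN : p * k + x + M ≤ N) :
    ((range N).filter fun b => b % p ∈ Aset p x M).card + (k + 1) * M ≤ N := by
  have h1 := card_mod_ge hp hx hN
  have h2 := Finset.card_filter_add_card_filter_not (s := range N)
    (fun b => x ≤ b % p ∧ b % p < x + M)
  have h3 : ((range N).filter fun b => b % p ∈ Aset p x M)
      = (range N).filter fun b => ¬ (x ≤ b % p ∧ b % p < x + M) := by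
    refine Finset.filter_congr fun b _ => ?_
    exact mem_Aset (Nat.mod_lt _ hp)
  rw [h3]
  rw [card_range] at h2
  omega

variable {p : ℕ} [hp : Fact p.Prime]

/-- offset of a group -/
def offs (x y : ℕ) (g : Gp) : ℕ := if g.cusp = 0 then x else if g.cusp = 1 then y else 0

theorem card_col0 (d : CD p) {g : Gp} (hg : g.cusp = 0) (x M o : ℕ) :
    ((range (d.N g)).filter fun k => d.cl g k ∉ Aset p x M).card
      ≤ o * M + (d.N g - x - p * o) := by
  have h1 : ((range (d.N g)).filter fun k => d.cl g k ∉ Aset p x M)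
      = (range (d.N g)).filter fun k => x ≤ k % p ∧ k % p < x + M := by
    refine Finset.filter_congr fun k _ => ?_
    unfold CD.cl
    rw [if_pos hg, mem_Aset (Nat.mod_lt _ hp.out.pos), not_not]
  rw [h1]
  exact card_mod_le _ _

theorem card_col1 (d : CD p) {g : Gp} (hg : g.cusp = 1) {x y M e : ℕ}
    (hy : y + M ≤ p) (hD : p * e + x + y + M = d.D) (o : ℕ) :
    ((range (d.N g)).filter fun k => d.cl g k ∉ Aset p x M).card
      ≤ o * M + (d.N g - y - p * o) := by
  have h1 : ((range (d.N g)).filter fun k => d.cl g k ∉ Aset p x M)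
      ⊆ (range (d.N g)).filter fun k => y ≤ k % p ∧ k % p < y + M := by
    intro k hk
    rw [mem_filter] at hk ⊢
    refine ⟨hk.1, ?_⟩
    have h2 := hk.2
    unfold CD.cl at h2
    rw [if_neg (by rw [hg]; decide), mem_Aset (d.cp_lt _), not_not] at h2
    have h3 : d.cp (d.cp k) = k % p := by
      have h4 := d.cp_cp (Nat.mod_lt k hp.out.pos)
      rwa [d.cp_mod] at h4
    rw [← h3]
    set i := d.cp k with hi
    have hip : i < p := d.cp_lt _
    have h5 : d.cp i = y + (x + M - 1 - i) := by
      unfold CD.cp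
      rw [Nat.mod_eq_of_lt hip]
      have h6 : d.D - 1 + (p - i) = p * (e + 1) + (y + (x + M - 1 - i)) := by
        rw [← hD, mul_add, mul_one]
        omega
      rw [h6, Nat.mul_add_mod, Nat.mod_eq_of_lt (by omega)]
    rw [h5]
    omega
  exact (card_le_card h1).trans (card_mod_le _ _)

omit hp in
theorem card_classes {x M : ℕ} :
    ((range p).filter fun i => i ∉ Aset p x M).card ≤ M := by
  have h1 : ((range p).filter fun i => i ∉ Aset p x M) ⊆ Ico x (x + M) := by
    intro i hi
    rw [mem_filter, mem_range] at hi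
    rw [mem_Aset hi.1, not_not] at hi
    rw [mem_Ico]
    exact hi.2
  refine (card_le_card h1).trans ?_
  rw [Nat.card_Ico]
  omega

omit hp in
theorem card_rest (N J : ℕ) : ((range N).filter fun k => p * J ≤ k).card ≤ N - p * J := by
  have h1 : ((range N).filter fun k => p * J ≤ k) ⊆ Ico (p * J) N := by
    intro k hk
    rw [mem_filter, mem_range] at hk
    rw [mem_Ico]
    omega
  refine (card_le_card h1).trans ?_
  rw [Nat.card_Ico]

/-- **the class count of one interval** -/
theorem cnt_fam (d : CD p) {x y M e : ℕ} (hx : x + M ≤ p) (hy : y + M ≤ p)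
    (hD : p * e + x + y + M = d.D) (hpD : p ≤ d.D) (he : 1 ≤ e) (o : Gp → ℕ) :
    d.cnt (Aset p x M) o + 8 * (e + 1) * M
      ≤ 8 * d.D + 1 + ∑ g : Gp, (o g * M + (d.N g - offs x y g - p * o g)) := by
  classical
  have hp0 := hp.out.pos
  unfold CD.cnt
  have hrow : ∑ l : Fin 8, ((range (d.Dl l)).filter (fun b => b % p ∈ Aset p x M)).card
      + 8 * (e + 1) * M ≤ 8 * d.D + 1 := by
    have h6 : ∀ l : Fin 8, l.val < 6 →
        ((range (d.Dl l)).filter (fun b => b % p ∈ Aset p x M)).card + (e + 1) * M ≤ d.D := by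
      intro l hl
      have hDl : d.Dl l = d.D := by unfold CD.Dl; rw [if_pos hl]
      rw [hDl]
      exact card_row hp0 hx (by omega)
    have h7 : ((range (d.Dl 6)).filter (fun b => b % p ∈ Aset p x M)).card + (e + 2) * M
        ≤ d.D + p := by
      have hDl : d.Dl 6 = d.D + p := rfl
      rw [hDl]
      refine card_row (k := e + 1) hp0 hx ?_
      rw [mul_add, mul_one]
      omega
    have h8 : ((range (d.Dl 7)).filter (fun b => b % p ∈ Aset p x M)).card + e * M
        ≤ d.D + 1 - p := by
      have hDl : d.Dl 7 = d.D + 1 - p := rfl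
      rw [hDl]
      obtain ⟨e', rfl⟩ : ∃ e', e = e' + 1 := ⟨e - 1, by omega⟩
      refine card_row (k := e') hp0 hx ?_
      rw [mul_add, mul_one] at hD
      omega
    have h0 := h6 0 (by decide)
    have h1 := h6 1 (by decide)
    have h2 := h6 2 (by decide)
    have h3 := h6 3 (by decide)
    have h4 := h6 4 (by decide)
    have h5 := h6 5 (by decide)
    rw [Fin.sum_univ_eight]
    have e1 : 8 * (e + 1) * M = 6 * ((e + 1) * M) + ((e + 2) * M + e * M) := by ring
    rw [e1]
    omega
  have hcol : ∑ g ∈ univ.filter (fun g : Gp => g.cusp = 0 ∨ g.cusp = 1),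
        ((range (d.N g)).filter (fun k => d.cl g k ∉ Aset p x M)).card
      ≤ ∑ g ∈ univ.filter (fun g : Gp => g.cusp = 0 ∨ g.cusp = 1),
        (o g * M + (d.N g - offs x y g - p * o g)) := by
    refine Finset.sum_le_sum fun g hg => ?_
    rcases (mem_filter.1 hg).2 with h | h
    · have : offs x y g = x := by unfold offs; rw [if_pos h]
      rw [this]
      exact card_col0 d h x M (o g)
    · have : offs x y g = y := by
        unfold offs; rw [if_neg (by rw [h]; decide), if_pos h]
      rw [this]
      exact card_col1 d h hy hD (o g)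
  have hc23 : ∑ g ∈ univ.filter (fun g : Gp => ¬ (g.cusp = 0 ∨ g.cusp = 1)),
        ((range p).filter (fun i => i ∉ Aset p x M)).card * o g
      + ∑ g ∈ univ.filter (fun g : Gp => ¬ (g.cusp = 0 ∨ g.cusp = 1)),
        ((range (d.N g)).filter (fun k => p * o g ≤ k)).card
      ≤ ∑ g ∈ univ.filter (fun g : Gp => ¬ (g.cusp = 0 ∨ g.cusp = 1)),
        (o g * M + (d.N g - offs x y g - p * o g)) := by
    rw [← Finset.sum_add_distrib]
    refine Finset.sum_le_sum fun g hg => ?_
    have h := (mem_filter.1 hg).2
    push Not at h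
    have h1 : offs x y g = 0 := by
      unfold offs; rw [if_neg h.1, if_neg h.2]
    rw [h1, Nat.sub_zero, mul_comm (o g) M]
    exact Nat.add_le_add (Nat.mul_le_mul_right _ card_classes) (card_rest _ _)
  have hs : ∑ g : Gp, (o g * M + (d.N g - offs x y g - p * o g))
      = ∑ g ∈ univ.filter (fun g : Gp => g.cusp = 0 ∨ g.cusp = 1),
          (o g * M + (d.N g - offs x y g - p * o g))
        + ∑ g ∈ univ.filter (fun g : Gp => ¬ (g.cusp = 0 ∨ g.cusp = 1)),
          (o g * M + (d.N g - offs x y g - p * o g)) :=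
    (Finset.sum_filter_add_sum_filter_not _ _ _).symm
  rw [hs]
  omega

end Vale.Agent.P030.H361
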