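import Vale.Agent.P030.H361.CntFam

/-!
# The class count of two intervals of classes
-/

open Finset

namespace Vale.Agent.P030.H361

open Vale.Agent.P030.T Vale.Agent.P030.H641

/-- two disjoint intervals: the rows -/
theorem card_inter {p x x' M M' N : ℕ} (hp : 0 < p) (hd : x + M ≤ x') :
    ((range N).filter fun b => b % p ∈ Aset p x M ∩ Aset p x' M').card + N
      ≤ ((range N).filter fun b => b % p ∈ Aset p x M).card
        + ((range N).filter fun b => b % p ∈ Aset p x' M').card := by
  classical
  have h1 := card_union_add_card_inter ((range N).filter fun b => b % p ∈ Aset p x M)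
    ((range N).filter fun b => b % p ∈ Aset p x' M')
  have h2 : ((range N).filter fun b => b % p ∈ Aset p x M)
      ∪ ((range N).filter fun b => b % p ∈ Aset p x' M') = range N := by
    rw [← filter_or]
    refine Finset.filter_true_of_mem fun b _ => ?_
    have hb := Nat.mod_lt b hp
    rw [mem_Aset hb, mem_Aset hb]
    by_contra hc
    push Not at hc
    omega
  have h3 : ((range N).filter fun b => b % p ∈ Aset p x M)
      ∩ ((range N).filter fun b => b % p ∈ Aset p x' M')
        = (range N).filter fun b => b % p ∈ Aset p x M ∩ Aset p x' M' := by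
    rw [← filter_and]
    refine Finset.filter_congr fun b _ => ?_
    rw [mem_inter]
  rw [h2, h3, card_range] at h1
  omega

theorem card_not_inter {ι : Type*} (S : Finset ι) (f : ι → ℕ) (A B : Finset ℕ) :
    (S.filter fun b => f b ∉ A ∩ B).card
      ≤ (S.filter fun b => f b ∉ A).card + (S.filter fun b => f b ∉ B).card := by
  classical
  refine (card_le_card (t := (S.filter fun b => f b ∉ A) ∪ (S.filter fun b => f b ∉ B)) ?_).trans
    (card_union_le _ _)
  intro b hb
  rw [mem_filter, mem_inter] at hb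
  rw [mem_union, mem_filter, mem_filter]
  tauto

variable {p : ℕ} [hp : Fact p.Prime]

/-- columns of one group in two intervals -/
def col2 (d : CD p) (x y M x' y' M' : ℕ) (o o' : Gp → ℕ) (g : Gp) : ℕ :=
  if g.cusp = 0 ∨ g.cusp = 1 then
    (o g * M + (d.N g - offs x y g - p * o g)) + (o' g * M' + (d.N g - offs x' y' g - p * o' g))
  else o g * (M + M') + (d.N g - p * o g)

/-- **the class count of two intervals** -/
theorem cnt_fam2 (d : CD p) {x y M e x' y' M' e' : ℕ} (hx : x + M ≤ p) (hy : y + M ≤ p)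
    (hD : p * e + x + y + M = d.D) (he : 1 ≤ e) (hx' : x' + M' ≤ p) (hy' : y' + M' ≤ p)
    (hD' : p * e' + x' + y' + M' = d.D) (he' : 1 ≤ e') (hd : x + M ≤ x')
    (hpD : p ≤ d.D) (o o' : Gp → ℕ) :
    d.cnt (Aset p x M ∩ Aset p x' M') o + (8 * (e + 1) * M + 8 * (e' + 1) * M')
      ≤ 8 * d.D + 1 + ∑ g : Gp, col2 d x y M x' y' M' o o' g := by
  classical
  have hp0 := hp.out.pos
  unfold CD.cnt
  have key : ∀ {x y M e : ℕ}, x + M ≤ p → y + M ≤ p → p * e + x + y + M = d.D → 1 ≤ e →
      (∀ l : Fin 8, l.val < 6 →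
        ((range (d.Dl l)).filter (fun b => b % p ∈ Aset p x M)).card + (e + 1) * M ≤ d.D) ∧
      ((range (d.Dl 6)).filter (fun b => b % p ∈ Aset p x M)).card + (e + 2) * M ≤ d.D + p ∧
      ((range (d.Dl 7)).filter (fun b => b % p ∈ Aset p x M)).card + e * M ≤ d.D + 1 - p := by
    intro x y M e hx hy hD he
    refine ⟨fun l hl => ?_, ?_, ?_⟩
    · have hDl : d.Dl l = d.D := by unfold CD.Dl; rw [if_pos hl]
      rw [hDl]
      exact card_row hp0 hx (by omega)
    · have hDl : d.Dl 6 = d.D + p := rfl
      rw [hDl]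
      refine card_row (k := e + 1) hp0 hx ?_
      rw [mul_add, mul_one]
      omega
    · have hDl : d.Dl 7 = d.D + 1 - p := rfl
      rw [hDl]
      obtain ⟨e', rfl⟩ : ∃ e', e = e' + 1 := ⟨e - 1, by omega⟩
      refine card_row (k := e') hp0 hx ?_
      rw [mul_add, mul_one] at hD
      omega
  obtain ⟨k1, k2, k3⟩ := key hx hy hD he
  obtain ⟨k1', k2', k3'⟩ := key hx' hy' hD' he'
  have hrow : ∑ l : Fin 8,
      ((range (d.Dl l)).filter (fun b => b % p ∈ Aset p x M ∩ Aset p x' M')).card
      + (8 * (e + 1) * M + 8 * (e' + 1) * M') ≤ 8 * d.D + 1 := by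
    have h6 : ∀ l : Fin 8, l.val < 6 →
        ((range (d.Dl l)).filter (fun b => b % p ∈ Aset p x M ∩ Aset p x' M')).card
          + ((e + 1) * M + (e' + 1) * M') ≤ d.D := by
      intro l hl
      have hDl : d.Dl l = d.D := by unfold CD.Dl; rw [if_pos hl]
      have a1 := k1 l hl
      have a2 := k1' l hl
      have a3 := card_inter (N := d.Dl l) (M' := M') hp0 hd
      omega
    have h7 : ((range (d.Dl 6)).filter (fun b => b % p ∈ Aset p x M ∩ Aset p x' M')).card
        + ((e + 2) * M + (e' + 2) * M') ≤ d.D + p := by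
      have hDl : d.Dl 6 = d.D + p := rfl
      have a3 := card_inter (N := d.Dl 6) (M' := M') hp0 hd
      omega
    have h8 : ((range (d.Dl 7)).filter (fun b => b % p ∈ Aset p x M ∩ Aset p x' M')).card
        + (e * M + e' * M') ≤ d.D + 1 - p := by
      have hDl : d.Dl 7 = d.D + 1 - p := rfl
      have a3 := card_inter (N := d.Dl 7) (M' := M') hp0 hd
      omega
    have h0 := h6 0 (by decide)
    have h1 := h6 1 (by decide)
    have h2 := h6 2 (by decide)
    have h3 := h6 3 (by decide)
    have h4 := h6 4 (by decide)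
    have h5 := h6 5 (by decide)
    rw [Fin.sum_univ_eight]
    have e1 : 8 * (e + 1) * M = 6 * ((e + 1) * M) + ((e + 2) * M + e * M) := by ring
    have e2 : 8 * (e' + 1) * M' = 6 * ((e' + 1) * M') + ((e' + 2) * M' + e' * M') := by ring
    rw [e1, e2]
    omega
  have hcol : ∑ g ∈ univ.filter (fun g : Gp => g.cusp = 0 ∨ g.cusp = 1),
        ((range (d.N g)).filter (fun k => d.cl g k ∉ Aset p x M ∩ Aset p x' M')).card
      ≤ ∑ g ∈ univ.filter (fun g : Gp => g.cusp = 0 ∨ g.cusp = 1),
        col2 d x y M x' y' M' o o' g := by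
    refine Finset.sum_le_sum fun g hg => ?_
    have hg' := (mem_filter.1 hg).2
    unfold col2
    rw [if_pos hg']
    refine (card_not_inter _ (d.cl g) _ _).trans ?_
    rcases hg' with h | h
    · have e1 : offs x y g = x := by unfold offs; rw [if_pos h]
      have e2 : offs x' y' g = x' := by unfold offs; rw [if_pos h]
      rw [e1, e2]
      exact Nat.add_le_add (card_col0 d h x M (o g)) (card_col0 d h x' M' (o' g))
    · have e1 : offs x y g = y := by
        unfold offs; rw [if_neg (by rw [h]; decide), if_pos h]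
      have e2 : offs x' y' g = y' := by
        unfold offs; rw [if_neg (by rw [h]; decide), if_pos h]
      rw [e1, e2]
      exact Nat.add_le_add (card_col1 d h hy hD (o g)) (card_col1 d h hy' hD' (o' g))
  have hc23 : ∑ g ∈ univ.filter (fun g : Gp => ¬ (g.cusp = 0 ∨ g.cusp = 1)),
        ((range p).filter (fun i => i ∉ Aset p x M ∩ Aset p x' M')).card * o g
      + ∑ g ∈ univ.filter (fun g : Gp => ¬ (g.cusp = 0 ∨ g.cusp = 1)),
        ((range (d.N g)).filter (fun k => p * o g ≤ k)).card
      ≤ ∑ g ∈ univ.filter (fun g : Gp => ¬ (g.cusp = 0 ∨ g.cusp = 1)),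
        col2 d x y M x' y' M' o o' g := by
    rw [← Finset.sum_add_distrib]
    refine Finset.sum_le_sum fun g hg => ?_
    have h := (mem_filter.1 hg).2
    unfold col2
    rw [if_neg h, mul_comm (o g) (M + M')]
    refine Nat.add_le_add (Nat.mul_le_mul_right _ ?_) (card_rest _ _)
    refine (card_not_inter (range p) (fun i => i) _ _).trans ?_
    exact Nat.add_le_add card_classes card_classes
  have hs : ∑ g : Gp, col2 d x y M x' y' M' o o' g
      = ∑ g ∈ univ.filter (fun g : Gp => g.cusp = 0 ∨ g.cusp = 1),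
          col2 d x y M x' y' M' o o' g
        + ∑ g ∈ univ.filter (fun g : Gp => ¬ (g.cusp = 0 ∨ g.cusp = 1)),
          col2 d x y M x' y' M' o o' g :=
    (Finset.sum_filter_add_sum_filter_not _ _ _).symm
  rw [hs]
  omega

end Vale.Agent.P030.H361
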