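import Vale.Agent.P030.H361.Small2

/-!
# P030, odd primes: the pieces of the class gain for small `q = p / s` (design A)
-/

namespace Vale.Agent.P030.H361

open Vale.Agent.P030.T Vale.Agent.P030.H792 Vale.Agent.P030.H641

variable {c0 : ℕ} (hR : RedAllC c0)
include hR

theorem pc1 : LocRange H579.parA c0 ((25 : ℕ) / (8 : ℕ)) ((16 : ℕ) / (5 : ℕ))
    (fun q => (115 : ℤ) + (-15 : ℤ) * q) :=
  locRange_fam2 hR (by norm_num) (by norm_num) (by norm_num) _ _ ⟨10, 10, 1, 1, 3, 3, 1⟩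
    ⟨10, 10, 1, 0, 3, 3, 1⟩ 8 7 (by norm_num) (by norm_num)
    (fun _ _ => 0) (fun _ _ => 0) (fun s p => 27 * s - 8 * p)
    (fun s p => 27 * s - 8 * p) (fun s _ => 2 * s) (fun s p => p - 2 * s)
    fun s p h1 h2 h3 h4 => by
      refine ⟨⟨by omega, by omega, by omega⟩, ⟨by omega, by omega, by omega⟩, by omega, by omega, ?_⟩
      simp only [Ord.colA, Ord.colB]
      omega

theorem pc2 : LocRange H579.parA c0 ((16 : ℕ) / (5 : ℕ)) ((13 : ℕ) / (4 : ℕ))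
    (fun q => (51 : ℤ) + (5 : ℤ) * q) :=
  locRange_fam2 hR (by norm_num) (by norm_num) (by norm_num) _ _ ⟨10, 10, 1, 1, 3, 3, 1⟩
    ⟨10, 9, 1, 0, 3, 3, 1⟩ 8 7 (by norm_num) (by norm_num)
    (fun _ _ => 0) (fun _ _ => 0) (fun s p => 27 * s - 8 * p)
    (fun s p => 27 * s - 8 * p) (fun s _ => 2 * s) (fun s p => p - 2 * s)
    fun s p h1 h2 h3 h4 => by
      refine ⟨⟨by omega, by omega, by omega⟩, ⟨by omega, by omega, by omega⟩, by omega, by omega, ?_⟩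
      simp only [Ord.colA, Ord.colB]
      omega

theorem pc3 : LocRange H579.parA c0 ((13 : ℕ) / (4 : ℕ)) ((23 : ℕ) / (7 : ℕ))
    (fun q => (64 : ℤ) + (1 : ℤ) * q) :=
  locRange_fam2 hR (by norm_num) (by norm_num) (by norm_num) _ _ ⟨10, 10, 1, 1, 4, 3, 1⟩
    ⟨10, 9, 1, 0, 4, 3, 1⟩ 8 7 (by norm_num) (by norm_num)
    (fun _ _ => 0) (fun _ _ => 0) (fun s p => 27 * s - 8 * p)
    (fun s p => 27 * s - 8 * p) (fun s p => 32 * s - 9 * p) (fun s p => 10 * p - 32 * s)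
    fun s p h1 h2 h3 h4 => by
      refine ⟨⟨by omega, by omega, by omega⟩, ⟨by omega, by omega, by omega⟩, by omega, by omega, ?_⟩
      simp only [Ord.colA, Ord.colB]
      omega

theorem pc4 : LocRange H579.parA c0 ((23 : ℕ) / (7 : ℕ)) ((10 : ℕ) / (3 : ℕ))
    (fun q => (64 : ℤ) + (1 : ℤ) * q) :=
  locRange_fam2 hR (by norm_num) (by norm_num) (by norm_num) _ _ ⟨10, 10, 2, 1, 4, 3, 1⟩
    ⟨10, 9, 1, 0, 4, 3, 1⟩ 8 7 (by norm_num) (by norm_num)
    (fun _ _ => 0) (fun _ _ => 0) (fun s p => 27 * s - 8 * p)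
    (fun s p => 27 * s - 8 * p) (fun s p => 32 * s - 9 * p) (fun s p => 10 * p - 32 * s)
    fun s p h1 h2 h3 h4 => by
      refine ⟨⟨by omega, by omega, by omega⟩, ⟨by omega, by omega, by omega⟩, by omega, by omega, ?_⟩
      simp only [Ord.colA, Ord.colB]
      omega

theorem pc5 : LocRange H579.parA c0 ((10 : ℕ) / (3 : ℕ)) ((101 : ℕ) / (30 : ℕ))
    (fun q => (-36 : ℤ) + (31 : ℤ) * q) :=
  locRange_fam2 hR (by norm_num) (by norm_num) (by norm_num) _ _ ⟨10, 10, 2, 1, 4, 3, 1⟩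
    ⟨10, 9, 1, 0, 4, 3, 1⟩ 8 7 (by norm_num) (by norm_num)
    (fun _ _ => 0) (fun _ _ => 0) (fun s p => 27 * s - 8 * p)
    (fun s p => 27 * s - 8 * p) (fun s _ => 2 * s) (fun s p => p - 2 * s)
    fun s p h1 h2 h3 h4 => by
      refine ⟨⟨by omega, by omega, by omega⟩, ⟨by omega, by omega, by omega⟩, by omega, by omega, ?_⟩
      simp only [Ord.colA, Ord.colB]
      omega

theorem pc7 : LocRange H579.parA c0 ((27 : ℕ) / (8 : ℕ)) ((17 : ℕ) / (5 : ℕ))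
    (fun q => (92 : ℤ) + (-7 : ℤ) * q) :=
  locRange_fam hR (by norm_num) (by norm_num) (by norm_num) _ _ ⟨9, 9, 1, 0, 3, 2, 1⟩ 7 (by norm_num)
    (fun _ _ => 0) (fun _ _ => 0) (fun s p => 27 * s - 7 * p)
    fun s p h1 h2 h3 h4 => by
      refine ⟨by omega, by omega, by omega, by omega, ?_⟩
      simp only [Ord.cols]
      omega

theorem pc8 : LocRange H579.parA c0 ((17 : ℕ) / (5 : ℕ)) ((32 : ℕ) / (9 : ℕ))
    (fun q => (109 : ℤ) + (-12 : ℤ) * q) :=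
  locRange_fam hR (by norm_num) (by norm_num) (by norm_num) _ _ ⟨9, 9, 1, 0, 3, 3, 1⟩ 7 (by norm_num)
    (fun _ _ => 0) (fun s p => 32 * s - 9 * p) (fun s p => 2 * p - 5 * s)
    fun s p h1 h2 h3 h4 => by
      refine ⟨by omega, by omega, by omega, by omega, ?_⟩
      simp only [Ord.cols]
      omega

theorem pc9 : LocRange H579.parA c0 ((32 : ℕ) / (9 : ℕ)) ((25 : ℕ) / (7 : ℕ))
    (fun q => (-19 : ℤ) + (24 : ℤ) * q) :=
  locRange_fam2 hR (by norm_num) (by norm_num) (by norm_num) _ _ ⟨9, 9, 1, 0, 3, 3, 1⟩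
    ⟨9, 8, 1, 0, 3, 3, 1⟩ 7 6 (by norm_num) (by norm_num)
    (fun _ _ => 0) (fun _ _ => 0) (fun s p => 27 * s - 7 * p)
    (fun s p => 27 * s - 7 * p) (fun s p => 32 * s - 8 * p) (fun s p => 9 * p - 32 * s)
    fun s p h1 h2 h3 h4 => by
      refine ⟨⟨by omega, by omega, by omega⟩, ⟨by omega, by omega, by omega⟩, by omega, by omega, ?_⟩
      simp only [Ord.colA, Ord.colB]
      omega

theorem pc10 : LocRange H579.parA c0 ((25 : ℕ) / (7 : ℕ)) ((37 : ℕ) / (10 : ℕ))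
    (fun q => (56 : ℤ) + (3 : ℤ) * q) :=
  locRange_fam2 hR (by norm_num) (by norm_num) (by norm_num) _ _ ⟨9, 9, 1, 1, 3, 3, 1⟩
    ⟨9, 8, 1, 0, 3, 3, 1⟩ 7 6 (by norm_num) (by norm_num)
    (fun _ _ => 0) (fun _ _ => 0) (fun s p => 27 * s - 7 * p)
    (fun s p => 27 * s - 7 * p) (fun s p => 32 * s - 8 * p) (fun s p => 9 * p - 32 * s)
    fun s p h1 h2 h3 h4 => by
      refine ⟨⟨by omega, by omega, by omega⟩, ⟨by omega, by omega, by omega⟩, by omega, by omega, ?_⟩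
      simp only [Ord.colA, Ord.colB]
      omega

theorem pc11 : LocRange H579.parA c0 ((37 : ℕ) / (10 : ℕ)) ((15 : ℕ) / (4 : ℕ))
    (fun q => (115 : ℤ) + (-13 : ℤ) * q) :=
  locRange_fam2 hR (by norm_num) (by norm_num) (by norm_num) _ _ ⟨9, 9, 1, 1, 3, 2, 1⟩
    ⟨8, 8, 1, 0, 3, 2, 1⟩ 7 6 (by norm_num) (by norm_num)
    (fun _ _ => 0) (fun _ _ => 0) (fun s p => 27 * s - 7 * p)
    (fun s p => 27 * s - 7 * p) (fun s _ => 2 * s) (fun s p => p - 2 * s)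
    fun s p h1 h2 h3 h4 => by
      refine ⟨⟨by omega, by omega, by omega⟩, ⟨by omega, by omega, by omega⟩, by omega, by omega, ?_⟩
      simp only [Ord.colA, Ord.colB]
      omega

theorem pc12 : LocRange H579.parA c0 ((15 : ℕ) / (4 : ℕ)) ((23 : ℕ) / (6 : ℕ))
    (fun q => (55 : ℤ) + (3 : ℤ) * q) :=
  locRange_fam2 hR (by norm_num) (by norm_num) (by norm_num) _ _ ⟨9, 9, 1, 1, 3, 2, 1⟩
    ⟨8, 8, 1, 0, 3, 2, 1⟩ 7 6 (by norm_num) (by norm_num)
    (fun _ _ => 0) (fun _ _ => 0) (fun s p => 27 * s - 7 * p)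
    (fun s p => 27 * s - 7 * p) (fun s p => 32 * s - 8 * p) (fun s p => 9 * p - 32 * s)
    fun s p h1 h2 h3 h4 => by
      refine ⟨⟨by omega, by omega, by omega⟩, ⟨by omega, by omega, by omega⟩, by omega, by omega, ?_⟩
      simp only [Ord.colA, Ord.colB]
      omega

theorem pc13 : LocRange H579.parA c0 ((23 : ℕ) / (6 : ℕ)) ((27 : ℕ) / (7 : ℕ))
    (fun q => (55 : ℤ) + (3 : ℤ) * q) :=
  locRange_fam2 hR (by norm_num) (by norm_num) (by norm_num) _ _ ⟨9, 9, 2, 1, 3, 2, 1⟩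
    ⟨8, 8, 1, 0, 3, 2, 1⟩ 7 6 (by norm_num) (by norm_num)
    (fun _ _ => 0) (fun _ _ => 0) (fun s p => 27 * s - 7 * p)
    (fun s p => 4 * s - p) (fun s p => 32 * s - 8 * p) (fun s p => 3 * p - 9 * s)
    fun s p h1 h2 h3 h4 => by
      refine ⟨⟨by omega, by omega, by omega⟩, ⟨by omega, by omega, by omega⟩, by omega, by omega, ?_⟩
      simp only [Ord.colA, Ord.colB]
      omega

theorem pc14 : LocRange H579.parA c0 ((27 : ℕ) / (7 : ℕ)) ((4 : ℕ) / (1 : ℕ))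
    (fun q => (109 : ℤ) + (-11 : ℤ) * q) :=
  locRange_fam hR (by norm_num) (by norm_num) (by norm_num) _ _ ⟨8, 8, 1, 0, 3, 2, 1⟩ 6 (by norm_num)
    (fun s p => 4 * s - p) (fun s p => 32 * s - 8 * p) (fun s p => 3 * p - 9 * s)
    fun s p h1 h2 h3 h4 => by
      refine ⟨by omega, by omega, by omega, by omega, ?_⟩
      simp only [Ord.cols]
      omega

theorem pc15 : LocRange H579.parA c0 ((4 : ℕ) / (1 : ℕ)) ((37 : ℕ) / (9 : ℕ))
    (fun q => (-27 : ℤ) + (23 : ℤ) * q) :=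
  locRange_fam hR (by norm_num) (by norm_num) (by norm_num) _ _ ⟨8, 8, 1, 0, 3, 2, 1⟩ 6 (by norm_num)
    (fun _ _ => 0) (fun _ _ => 0) (fun s p => 27 * s - 6 * p)
    fun s p h1 h2 h3 h4 => by
      refine ⟨by omega, by omega, by omega, by omega, ?_⟩
      simp only [Ord.cols]
      omega

theorem pc16 : LocRange H579.parA c0 ((37 : ℕ) / (9 : ℕ)) ((25 : ℕ) / (6 : ℕ))
    (fun q => (10 : ℤ) + (14 : ℤ) * q) :=
  locRange_fam2 hR (by norm_num) (by norm_num) (by norm_num) _ _ ⟨8, 8, 1, 0, 3, 2, 1⟩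
    ⟨7, 7, 1, 0, 3, 2, 1⟩ 6 5 (by norm_num) (by norm_num)
    (fun _ _ => 0) (fun _ _ => 0) (fun s p => 27 * s - 6 * p)
    (fun s p => 32 * s - 7 * p) (fun s p => 32 * s - 7 * p) (fun s p => 9 * p - 37 * s)
    fun s p h1 h2 h3 h4 => by
      refine ⟨⟨by omega, by omega, by omega⟩, ⟨by omega, by omega, by omega⟩, by omega, by omega, ?_⟩
      simp only [Ord.colA, Ord.colB]
      omega

theorem pc17 : LocRange H579.parA c0 ((25 : ℕ) / (6 : ℕ)) ((30 : ℕ) / (7 : ℕ))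
    (fun q => (85 : ℤ) + (-4 : ℤ) * q) :=
  locRange_fam2 hR (by norm_num) (by norm_num) (by norm_num) _ _ ⟨8, 8, 1, 1, 3, 2, 1⟩
    ⟨7, 7, 1, 0, 3, 2, 1⟩ 6 5 (by norm_num) (by norm_num)
    (fun _ _ => 0) (fun _ _ => 0) (fun s p => 27 * s - 6 * p)
    (fun s p => 32 * s - 7 * p) (fun s p => 32 * s - 7 * p) (fun s p => 9 * p - 37 * s)
    fun s p h1 h2 h3 h4 => by
      refine ⟨⟨by omega, by omega, by omega⟩, ⟨by omega, by omega, by omega⟩, by omega, by omega, ?_⟩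
      simp only [Ord.colA, Ord.colB]
      omega

theorem pc18 : LocRange H579.parA c0 ((30 : ℕ) / (7 : ℕ)) ((9 : ℕ) / (2 : ℕ))
    (fun q => (55 : ℤ) + (3 : ℤ) * q) :=
  locRange_fam2 hR (by norm_num) (by norm_num) (by norm_num) _ _ ⟨8, 8, 1, 1, 3, 2, 1⟩
    ⟨7, 7, 1, 0, 3, 2, 1⟩ 6 5 (by norm_num) (by norm_num)
    (fun _ _ => 0) (fun _ _ => 0) (fun s p => 27 * s - 6 * p)
    (fun s p => 32 * s - 7 * p) (fun s _ => 2 * s) (fun s p => 2 * p - 7 * s)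
    fun s p h1 h2 h3 h4 => by
      refine ⟨⟨by omega, by omega, by omega⟩, ⟨by omega, by omega, by omega⟩, by omega, by omega, ?_⟩
      simp only [Ord.colA, Ord.colB]
      omega

theorem pc19 : LocRange H579.parA c0 ((9 : ℕ) / (2 : ℕ)) ((32 : ℕ) / (7 : ℕ))
    (fun q => (82 : ℤ) + (-3 : ℤ) * q) :=
  locRange_fam hR (by norm_num) (by norm_num) (by norm_num) _ _ ⟨7, 7, 1, 0, 3, 2, 1⟩ 5 (by norm_num)
    (fun s p => 32 * s - 7 * p) (fun s _ => 2 * s) (fun s p => 2 * p - 7 * s)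
    fun s p h1 h2 h3 h4 => by
      refine ⟨by omega, by omega, by omega, by omega, ?_⟩
      simp only [Ord.cols]
      omega

theorem pc20 : LocRange H579.parA c0 ((32 : ℕ) / (7 : ℕ)) ((5 : ℕ) / (1 : ℕ))
    (fun q => (50 : ℤ) + (4 : ℤ) * q) :=
  locRange_fam hR (by norm_num) (by norm_num) (by norm_num) _ _ ⟨7, 7, 1, 0, 3, 2, 1⟩ 5 (by norm_num)
    (fun _ _ => 0) (fun s _ => 2 * s) (fun s p => 25 * s - 5 * p)
    fun s p h1 h2 h3 h4 => by
      refine ⟨by omega, by omega, by omega, by omega, ?_⟩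
      simp only [Ord.cols]
      omega

theorem pc21 : LocRange H579.parA c0 ((5 : ℕ) / (1 : ℕ)) ((37 : ℕ) / (7 : ℕ))
    (fun q => (70 : ℤ) + (0 : ℤ) * q) :=
  locRange_fam hR (by norm_num) (by norm_num) (by norm_num) _ _ ⟨7, 6, 1, 1, 3, 2, 1⟩ 5 (by norm_num)
    (fun _ _ => 0) (fun s p => 32 * s - 6 * p) (fun s p => p - 5 * s)
    fun s p h1 h2 h3 h4 => by
      refine ⟨by omega, by omega, by omega, by omega, ?_⟩
      simp only [Ord.cols]
      omega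

theorem pc22 : LocRange H579.parA c0 ((37 : ℕ) / (7 : ℕ)) ((16 : ℕ) / (3 : ℕ))
    (fun q => (144 : ℤ) + (-14 : ℤ) * q) :=
  locRange_fam hR (by norm_num) (by norm_num) (by norm_num) _ _ ⟨6, 6, 1, 1, 3, 2, 1⟩ 5 (by norm_num)
    (fun _ _ => 0) (fun s p => 32 * s - 6 * p) (fun s p => p - 5 * s)
    fun s p h1 h2 h3 h4 => by
      refine ⟨by omega, by omega, by omega, by omega, ?_⟩
      simp only [Ord.cols]
      omega

theorem pc23 : LocRange H579.parA c0 ((16 : ℕ) / (3 : ℕ)) ((27 : ℕ) / (5 : ℕ))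
    (fun q => (16 : ℤ) + (10 : ℤ) * q) :=
  locRange_fam2 hR (by norm_num) (by norm_num) (by norm_num) _ _ ⟨6, 6, 1, 1, 3, 2, 1⟩
    ⟨6, 5, 1, 0, 3, 2, 1⟩ 5 4 (by norm_num) (by norm_num)
    (fun _ _ => 0) (fun _ _ => 0) (fun s p => 27 * s - 5 * p)
    (fun s p => 27 * s - 5 * p) (fun s p => 32 * s - 5 * p) (fun s p => 6 * p - 32 * s)
    fun s p h1 h2 h3 h4 => by
      refine ⟨⟨by omega, by omega, by omega⟩, ⟨by omega, by omega, by omega⟩, by omega, by omega, ?_⟩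
      simp only [Ord.colA, Ord.colB]
      omega

theorem pc24 : LocRange H579.parA c0 ((27 : ℕ) / (5 : ℕ)) ((17 : ℕ) / (3 : ℕ))
    (fun q => (70 : ℤ) + (0 : ℤ) * q) :=
  locRange_fam hR (by norm_num) (by norm_num) (by norm_num) _ _ ⟨6, 5, 1, 0, 3, 2, 1⟩ 4 (by norm_num)
    (fun _ _ => 0) (fun s p => 32 * s - 5 * p) (fun s p => p - 5 * s)
    fun s p h1 h2 h3 h4 => by
      refine ⟨by omega, by omega, by omega, by omega, ?_⟩
      simp only [Ord.cols]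
      omega

theorem pc25 : LocRange H579.parA c0 ((17 : ℕ) / (3 : ℕ)) ((6 : ℕ) / (1 : ℕ))
    (fun q => (87 : ℤ) + (-3 : ℤ) * q) :=
  locRange_fam hR (by norm_num) (by norm_num) (by norm_num) _ _ ⟨6, 5, 1, 0, 2, 2, 1⟩ 4 (by norm_num)
    (fun _ _ => 0) (fun s p => 32 * s - 5 * p) (fun s p => p - 5 * s)
    fun s p h1 h2 h3 h4 => by
      refine ⟨by omega, by omega, by omega, by omega, ?_⟩
      simp only [Ord.cols]
      omega

theorem pc26 : LocRange H579.parA c0 ((6 : ℕ) / (1 : ℕ)) ((37 : ℕ) / (6 : ℕ))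
    (fun q => (15 : ℤ) + (9 : ℤ) * q) :=
  locRange_fam hR (by norm_num) (by norm_num) (by norm_num) _ _ ⟨6, 5, 1, 0, 2, 2, 1⟩ 4 (by norm_num)
    (fun _ _ => 0) (fun s _ => 2 * s) (fun s p => 25 * s - 4 * p)
    fun s p h1 h2 h3 h4 => by
      refine ⟨by omega, by omega, by omega, by omega, ?_⟩
      simp only [Ord.cols]
      omega

theorem pc27 : LocRange H579.parA c0 ((37 : ℕ) / (6 : ℕ)) ((25 : ℕ) / (4 : ℕ))
    (fun q => (52 : ℤ) + (3 : ℤ) * q) :=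
  locRange_fam2 hR (by norm_num) (by norm_num) (by norm_num) _ _ ⟨6, 5, 1, 0, 2, 2, 1⟩
    ⟨5, 5, 1, 1, 2, 2, 1⟩ 4 4 (by norm_num) (by norm_num)
    (fun _ _ => 0) (fun s _ => 2 * s) (fun s p => 25 * s - 4 * p)
    (fun s p => 32 * s - 5 * p) (fun s p => 32 * s - 5 * p) (fun s p => 6 * p - 37 * s)
    fun s p h1 h2 h3 h4 => by
      refine ⟨⟨by omega, by omega, by omega⟩, ⟨by omega, by omega, by omega⟩, by omega, by omega, ?_⟩
      simp only [Ord.colA, Ord.colB]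
      omega

theorem pc28 : LocRange H579.parA c0 ((25 : ℕ) / (4 : ℕ)) ((32 : ℕ) / (5 : ℕ))
    (fun q => (102 : ℤ) + (-5 : ℤ) * q) :=
  locRange_fam hR (by norm_num) (by norm_num) (by norm_num) _ _ ⟨5, 5, 1, 1, 2, 2, 1⟩ 4 (by norm_num)
    (fun s p => 32 * s - 5 * p) (fun s p => 32 * s - 5 * p) (fun s p => 6 * p - 37 * s)
    fun s p h1 h2 h3 h4 => by
      refine ⟨by omega, by omega, by omega, by omega, ?_⟩
      simp only [Ord.cols]
      omega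

theorem pc29 : LocRange H579.parA c0 ((32 : ℕ) / (5 : ℕ)) ((27 : ℕ) / (4 : ℕ))
    (fun q => (38 : ℤ) + (5 : ℤ) * q) :=
  locRange_fam hR (by norm_num) (by norm_num) (by norm_num) _ _ ⟨5, 5, 1, 1, 2, 2, 1⟩ 4 (by norm_num)
    (fun _ _ => 0) (fun _ _ => 0) (fun s p => 27 * s - 4 * p)
    fun s p h1 h2 h3 h4 => by
      refine ⟨by omega, by omega, by omega, by omega, ?_⟩
      simp only [Ord.cols]
      omega

theorem pc31 : LocRange H579.parA c0 ((37 : ℕ) / (5 : ℕ)) ((15 : ℕ) / (2 : ℕ))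
    (fun q => (102 : ℤ) + (-4 : ℤ) * q) :=
  locRange_fam hR (by norm_num) (by norm_num) (by norm_num) _ _ ⟨4, 4, 1, 0, 2, 2, 1⟩ 3 (by norm_num)
    (fun s p => 32 * s - 4 * p) (fun s p => 32 * s - 4 * p) (fun s p => 5 * p - 37 * s)
    fun s p h1 h2 h3 h4 => by
      refine ⟨by omega, by omega, by omega, by omega, ?_⟩
      simp only [Ord.cols]
      omega

theorem pc32 : LocRange H579.parA c0 ((15 : ℕ) / (2 : ℕ)) ((8 : ℕ) / (1 : ℕ))
    (fun q => (72 : ℤ) + (0 : ℤ) * q) :=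
  locRange_fam hR (by norm_num) (by norm_num) (by norm_num) _ _ ⟨4, 4, 1, 0, 2, 2, 1⟩ 3 (by norm_num)
    (fun s p => 32 * s - 4 * p) (fun s _ => 2 * s) (fun s p => p - 7 * s)
    fun s p h1 h2 h3 h4 => by
      refine ⟨by omega, by omega, by omega, by omega, ?_⟩
      simp only [Ord.cols]
      omega

theorem pc33 : LocRange H579.parA c0 ((8 : ℕ) / (1 : ℕ)) ((25 : ℕ) / (3 : ℕ))
    (fun q => (40 : ℤ) + (4 : ℤ) * q) :=
  locRange_fam hR (by norm_num) (by norm_num) (by norm_num) _ _ ⟨4, 4, 1, 0, 2, 2, 1⟩ 3 (by norm_num)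
    (fun _ _ => 0) (fun s _ => 2 * s) (fun s p => 25 * s - 3 * p)
    fun s p h1 h2 h3 h4 => by
      refine ⟨by omega, by omega, by omega, by omega, ?_⟩
      simp only [Ord.cols]
      omega

end Vale.Agent.P030.H361
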