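import Vale.Agent.P030.H361.CntFam
import Vale.Agent.P030.H641.Dip

/-!
# P030, odd primes: small `q = p / s`, one interval of classes

Cost `65 s + p - gain`, `gain = 8 d M - Σ_g (o_g M + (N_g - off_g - o_g p))`.
-/

open Finset

namespace Vale.Agent.P030.H361

open Vale.Agent.P030.T Vale.Agent.P030.H792 Vale.Agent.P030.H641

/-- the reductions for all primes, at all orders -/
def RedAllC (c0 : ℕ) : Prop :=
  ∀ (p : ℕ) [Fact p.Prime], 5 ≤ p → ∀ (s : ℕ) (x : ℚ), padicNorm p x ≤ 1 → p ≤ 27 * s →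
    32 * s + c0 + 2 ≤ p ^ 2 → RedA p s c0 x (fun g => H579.parA.ht g * s + c0)

/-- numbers of orders -/
structure Ord where
  /-- `z1, zl` -/
  m0 : ℕ
  /-- `w1, wl, wy` -/
  m1 : ℕ
  /-- `z8, zab` -/
  z : ℕ
  /-- `w8, wab, wf7` -/
  w : ℕ
  /-- `v2` -/
  v : ℕ
  /-- `x2` -/
  x : ℕ
  /-- `vl, v8, vb, xl, x1` -/
  k : ℕ

/-- the orders as a function -/
def Ord.o (r : Ord) : Gp → ℕ
  | .z1 => r.m0
  | .zl => r.m0
  | .z8 => r.z
  | .zab => r.z
  | .w1 => r.m1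
  | .wl => r.m1
  | .wy => r.m1
  | .w8 => r.w
  | .wab => r.w
  | .wf7 => r.w
  | .v2 => r.v
  | .vl => r.k
  | .v8 => r.k
  | .vb => r.k
  | .x2 => r.x
  | .xl => r.k
  | .x1 => r.k

/-- the number of columns of the interval -/
def Ord.cols (r : Ord) (p s c0 x y M : ℕ) : ℕ :=
  2 * (r.m0 * M + (32 * s + c0 - x - p * r.m0)) + 3 * (r.m1 * M + (32 * s + c0 - y - p * r.m1))
    + 2 * (r.z * M + (4 * s + c0 - x - p * r.z)) + 3 * (r.w * M + (2 * s + c0 - y - p * r.w))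
    + (r.v * M + (12 * s + c0 - p * r.v)) + (r.x * M + (10 * s + c0 - p * r.x))
    + 5 * (r.k * M + (4 * s + c0 - p * r.k))

variable {p : ℕ} [hp : Fact p.Prime]

theorem sum_cols {s c0 : ℕ} (d : CD p) (hN : ∀ g, d.N g = H579.parA.ht g * s + c0)
    (r : Ord) (x y M : ℕ) :
    ∑ g : Gp, (r.o g * M + (d.N g - offs x y g - p * r.o g)) = r.cols p s c0 x y M := by
  classical
  rw [← Finset.sum_filter_add_sum_filter_not univ (fun g : Gp => g.cusp = 0 ∨ g.cusp = 1),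
    CD.sum_c01, CD.sum_c23]
  have n1 : d.N .z1 = 32 * s + c0 := hN .z1
  have n2 : d.N .zl = 32 * s + c0 := hN .zl
  have n3 : d.N .w1 = 32 * s + c0 := hN .w1
  have n4 : d.N .wl = 32 * s + c0 := hN .wl
  have n5 : d.N .wy = 32 * s + c0 := hN .wy
  have n6 : d.N .z8 = 4 * s + c0 := hN .z8
  have n7 : d.N .zab = 4 * s + c0 := hN .zab
  have n8 : d.N .w8 = 2 * s + c0 := hN .w8
  have n9 : d.N .wab = 2 * s + c0 := hN .wab
  have n10 : d.N .wf7 = 2 * s + c0 := hN .wf7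
  have n11 : d.N .v2 = 12 * s + c0 := hN .v2
  have n12 : d.N .vl = 4 * s + c0 := hN .vl
  have n13 : d.N .v8 = 4 * s + c0 := hN .v8
  have n14 : d.N .vb = 4 * s + c0 := hN .vb
  have n15 : d.N .x2 = 10 * s + c0 := hN .x2
  have n16 : d.N .xl = 4 * s + c0 := hN .xl
  have n17 : d.N .x1 = 4 * s + c0 := hN .x1
  have o0 : ∀ g : Gp, g.cusp = 0 → offs x y g = x := fun g hg => by unfold offs; rw [if_pos hg]
  have o1 : ∀ g : Gp, g.cusp = 1 → offs x y g = y := fun g hg => by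
    unfold offs; rw [if_neg (by rw [hg]; decide), if_pos hg]
  have o2 : ∀ g : Gp, ¬ (g.cusp = 0 ∨ g.cusp = 1) → offs x y g = 0 := fun g hg => by
    push Not at hg
    unfold offs; rw [if_neg hg.1, if_neg hg.2]
  rw [n1, n2, n3, n4, n5, n6, n7, n8, n9, n10, n11, n12, n13, n14, n15, n16, n17,
    o0 .z1 rfl, o0 .zl rfl, o0 .z8 rfl, o0 .zab rfl, o1 .w1 rfl, o1 .wl rfl, o1 .wy rfl,
    o1 .w8 rfl, o1 .wab rfl, o1 .wf7 rfl, o2 .v2 (by decide), o2 .vl (by decide),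
    o2 .v8 (by decide), o2 .vb (by decide), o2 .x2 (by decide), o2 .xl (by decide),
    o2 .x1 (by decide)]
  simp only [Ord.o, Nat.sub_zero]
  unfold Ord.cols
  ring

/-- **the bound at one prime of an interval family** -/
theorem fam_val {s c0 : ℕ} (hp5 : 5 ≤ p) {X : ℚ}
    (hX : padicNorm p X ≤ 1) (hN : 32 * s + c0 + 2 ≤ p ^ 2) (hpD : p ≤ 27 * s)
    {σ : Fin (H579.parA.D0 * s) × Fin 8 → Cl} (hσ : Adm H579.parA c0 s σ)
    (hdet : (Mx (H579.parA.D0 * s) X σ).det ≠ 0) (hR : RedA p s c0 X (fun g => H579.parA.ht g * s + c0))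
    (r : Ord) {x y M e : ℕ} (hx : x + M ≤ p) (hy : y + M ≤ p)
    (hD : p * e + x + y + M = 27 * s) (he : 1 ≤ e) :
    8 * ((e : ℤ) + 1) * M - (r.cols p s c0 x y M : ℤ) - 65 * s - p - 8 * c0 - 1
      ≤ padicValRat p (Mx (H579.parA.D0 * s) X σ).det := by
  have h1 := le_val_A hp5 hX hN hpD hσ hdet hR (Aset p x M) r.o (fun _ _ hk _ => hk)
    (B := 8 * (27 * s) + 1 + (r.cols p s c0 x y M : ℤ) - 8 * ((e : ℤ) + 1) * M)
    (fun d hdD hdN => by
      have h2 := cnt_fam d hx hy (by rw [hdD]; exact hD) (by rw [hdD]; exact hpD) he r.o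
      rw [sum_cols d hdN r x y M, hdD] at h2
      have h3 : ((d.cnt (Aset p x M) r.o + 8 * (e + 1) * M : ℕ) : ℤ)
          ≤ ((8 * (27 * s) + 1 + r.cols p s c0 x y M : ℕ) : ℤ) := by exact_mod_cast h2
      push_cast at h3
      linarith)
  linarith

/-- from an integer inequality to a local range with a linear profile -/
theorem locRange_lin {c0 : ℕ} {an ad bn bd : ℕ} (had : 0 < ad) (hbd : 0 < bd) (han : 0 < an)
    (α β : ℤ) (C : ℕ)
    (h : ∀ (p : ℕ) [Fact p.Prime], 5 ≤ p → ∀ (s : ℕ) (X : ℚ), padicNorm p X ≤ 1 →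
      32 * s + c0 + 2 ≤ p ^ 2 → c0 + 2 ≤ s → an * s ≤ ad * p → bd * p < bn * s →
      ∀ σ : Fin (H579.parA.D0 * s) × Fin 8 → Cl, Adm H579.parA c0 s σ →
      (Mx (H579.parA.D0 * s) X σ).det ≠ 0 →
      -(α * s + β * p + C) ≤ padicValRat p (Mx (H579.parA.D0 * s) X σ).det) :
    LocRange H579.parA c0 ((an : ℝ) / ad) ((bn : ℝ) / bd) (fun q => α + β * q) := by
  intro X η hη
  obtain ⟨s1, hs1⟩ := exists_nat_gt (C / η : ℝ)
  refine ⟨max s1 (max (c0 + 2) (40 * ad ^ 2 + 5 * ad)), fun s hs p hpp hp2 hxp hap hbp σ hσ hdet => ?_⟩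
  have := Fact.mk hpp
  have hsc : c0 + 2 ≤ s := (le_max_left _ _).trans ((le_max_right _ _).trans hs)
  have hsa : 40 * ad ^ 2 + 5 * ad ≤ s := (le_max_right _ _).trans ((le_max_right _ _).trans hs)
  have hs0 : (0 : ℝ) < s := by
    have : 1 ≤ s := by omega
    exact_mod_cast this
  have had0 : (0 : ℝ) < ad := by exact_mod_cast had
  have hbd0 : (0 : ℝ) < bd := by exact_mod_cast hbd
  have hss1 : (s1 : ℝ) ≤ s := by exact_mod_cast (le_max_left _ _).trans hs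
  have hC : (C : ℝ) ≤ η * s := by
    have h1 := (div_lt_iff₀ hη).1 hs1
    have h2 := mul_le_mul_of_nonneg_right hss1 hη.le
    linarith
  have n1 : an * s ≤ ad * p := by
    have h1 := (div_le_div_iff₀ had0 hs0).1 hap
    have : (an : ℝ) * s ≤ ad * p := by linarith
    exact_mod_cast this
  have n2 : bd * p < bn * s := by
    have h1 := (div_lt_div_iff₀ hs0 hbd0).1 hbp
    have : (bd : ℝ) * p < bn * s := by linarith
    exact_mod_cast this
  have n3 : s ≤ ad * p := le_trans (Nat.le_mul_of_pos_left s han) n1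
  have hp5 : 5 ≤ p := by
    by_contra hc
    have : ad * p ≤ ad * 4 := Nat.mul_le_mul_left ad (by omega)
    nlinarith
  have hsq : 32 * s + c0 + 2 ≤ p ^ 2 := by
    have h1 : s * s ≤ (ad * p) * (ad * p) := Nat.mul_le_mul n3 n3
    have h2 : s * s ≤ ad ^ 2 * p ^ 2 := by nlinarith
    have h3 : 33 * s ≤ p ^ 2 := by
      by_contra hc
      push Not at hc
      have h4 : ad ^ 2 * p ^ 2 ≤ ad ^ 2 * (33 * s) := Nat.mul_le_mul_left _ hc.le
      have h5 : s * s ≤ ad ^ 2 * 33 * s := by nlinarith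
      have h6 : s ≤ ad ^ 2 * 33 := Nat.le_of_mul_le_mul_right h5 (by omega)
      have h7 : 0 < ad ^ 2 := by positivity
      nlinarith
    omega
  have g := h p hp5 s X (norm_x_le_one hxp) hsq hsc n1 n2 σ hσ hdet
  have g2 : ((-(α * s + β * p + C) : ℤ) : ℝ)
      ≤ ((padicValRat p (Mx (H579.parA.D0 * s) X σ).det : ℤ) : ℝ) := by exact_mod_cast g
  push_cast at g2
  have hps : (s : ℝ) * ((p : ℝ) / s) = p := by field_simp
  have e : (s : ℝ) * (α + β * ((p : ℝ) / s) + η) = α * s + β * (s * ((p : ℝ) / s)) + η * s := by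
    ring
  rw [e, hps]
  linarith

end Vale.Agent.P030.H361
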