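import Vale.Agent.P030.H361.Small
import Vale.Agent.P030.H361.CntFam2

/-!
# P030, odd primes: small `q = p / s`, two intervals of classes
-/

open Finset

namespace Vale.Agent.P030.H361

open Vale.Agent.P030.T Vale.Agent.P030.H792 Vale.Agent.P030.H641

/-- columns at `c0`, `c1` of one interval -/
def Ord.colA (r : Ord) (p s c0 x y M : ℕ) : ℕ :=
  2 * (r.m0 * M + (32 * s + c0 - x - p * r.m0)) + 3 * (r.m1 * M + (32 * s + c0 - y - p * r.m1))
    + 2 * (r.z * M + (4 * s + c0 - x - p * r.z)) + 3 * (r.w * M + (2 * s + c0 - y - p * r.w))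

/-- columns at `c2`, `c3` -/
def Ord.colB (r : Ord) (p s c0 M : ℕ) : ℕ :=
  (r.v * M + (12 * s + c0 - p * r.v)) + (r.x * M + (10 * s + c0 - p * r.x))
    + 5 * (r.k * M + (4 * s + c0 - p * r.k))

variable {p : ℕ} [hp : Fact p.Prime]

theorem sum_cols2 {s c0 : ℕ} (d : CD p) (hN : ∀ g, d.N g = H579.parA.ht g * s + c0)
    (r r' : Ord) (x y M x' y' M' : ℕ) :
    ∑ g : Gp, col2 d x y M x' y' M' r.o r'.o g
      = r.colA p s c0 x y M + r'.colA p s c0 x' y' M' + r.colB p s c0 (M + M') := by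
  classical
  have q0 : ∀ g : Gp, g.cusp = 0 → col2 d x y M x' y' M' r.o r'.o g
      = (r.o g * M + (H579.parA.ht g * s + c0 - x - p * r.o g))
        + (r'.o g * M' + (H579.parA.ht g * s + c0 - x' - p * r'.o g)) := fun g hg => by
    unfold col2 offs
    rw [if_pos (Or.inl hg), if_pos hg, if_pos hg, hN]
  have q1 : ∀ g : Gp, g.cusp = 1 → col2 d x y M x' y' M' r.o r'.o g
      = (r.o g * M + (H579.parA.ht g * s + c0 - y - p * r.o g))
        + (r'.o g * M' + (H579.parA.ht g * s + c0 - y' - p * r'.o g)) := fun g hg => by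
    unfold col2 offs
    have h0 : ¬ g.cusp = 0 := by rw [hg]; decide
    rw [if_pos (Or.inr hg), if_neg h0, if_pos hg, if_neg h0, if_pos hg, hN]
  have q2 : ∀ g : Gp, ¬ (g.cusp = 0 ∨ g.cusp = 1) → col2 d x y M x' y' M' r.o r'.o g
      = r.o g * (M + M') + (H579.parA.ht g * s + c0 - p * r.o g) := fun g hg => by
    unfold col2
    rw [if_neg hg, hN]
  rw [← Finset.sum_filter_add_sum_filter_not univ (fun g : Gp => g.cusp = 0 ∨ g.cusp = 1),
    CD.sum_c01, CD.sum_c23]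
  rw [q0 .z1 rfl, q0 .zl rfl, q0 .z8 rfl, q0 .zab rfl, q1 .w1 rfl, q1 .wl rfl, q1 .wy rfl,
    q1 .w8 rfl, q1 .wab rfl, q1 .wf7 rfl, q2 .v2 (by decide), q2 .vl (by decide),
    q2 .v8 (by decide), q2 .vb (by decide), q2 .x2 (by decide), q2 .xl (by decide),
    q2 .x1 (by decide)]
  have a1 : H579.parA.ht .z1 = 32 := rfl
  have a2 : H579.parA.ht .zl = 32 := rfl
  have a3 : H579.parA.ht .z8 = 4 := rfl
  have a4 : H579.parA.ht .zab = 4 := rfl
  have a5 : H579.parA.ht .w1 = 32 := rfl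
  have a6 : H579.parA.ht .wl = 32 := rfl
  have a7 : H579.parA.ht .wy = 32 := rfl
  have a8 : H579.parA.ht .w8 = 2 := rfl
  have a9 : H579.parA.ht .wab = 2 := rfl
  have a10 : H579.parA.ht .wf7 = 2 := rfl
  have a11 : H579.parA.ht .v2 = 12 := rfl
  have a12 : H579.parA.ht .vl = 4 := rfl
  have a13 : H579.parA.ht .v8 = 4 := rfl
  have a14 : H579.parA.ht .vb = 4 := rfl
  have a15 : H579.parA.ht .x2 = 10 := rfl
  have a16 : H579.parA.ht .xl = 4 := rfl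
  have a17 : H579.parA.ht .x1 = 4 := rfl
  rw [a1, a2, a3, a4, a5, a6, a7, a8, a9, a10, a11, a12, a13, a14, a15, a16, a17]
  simp only [Ord.o]
  unfold Ord.colA Ord.colB
  ring

/-- **the bound at one prime of two intervals** -/
theorem fam_val2 {s c0 : ℕ} (hp5 : 5 ≤ p) {X : ℚ}
    (hX : padicNorm p X ≤ 1) (hN : 32 * s + c0 + 2 ≤ p ^ 2) (hpD : p ≤ 27 * s)
    {σ : Fin (H579.parA.D0 * s) × Fin 8 → Cl} (hσ : Adm H579.parA c0 s σ)
    (hdet : (Mx (H579.parA.D0 * s) X σ).det ≠ 0)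
    (hR : RedA p s c0 X (fun g => H579.parA.ht g * s + c0))
    (r r' : Ord) {x y M e x' y' M' e' : ℕ} (hx : x + M ≤ p) (hy : y + M ≤ p)
    (hD : p * e + x + y + M = 27 * s) (he : 1 ≤ e) (hx' : x' + M' ≤ p) (hy' : y' + M' ≤ p)
    (hD' : p * e' + x' + y' + M' = 27 * s) (he' : 1 ≤ e') (hd : x + M ≤ x') :
    8 * ((e : ℤ) + 1) * M + 8 * ((e' : ℤ) + 1) * M'
        - (r.colA p s c0 x y M + r'.colA p s c0 x' y' M' + r.colB p s c0 (M + M') : ℕ)
        - 65 * s - p - 8 * c0 - 1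
      ≤ padicValRat p (Mx (H579.parA.D0 * s) X σ).det := by
  have h1 := le_val_A hp5 hX hN hpD hσ hdet hR (Aset p x M ∩ Aset p x' M') r.o
    (fun _ _ hk _ => hk)
    (B := 8 * (27 * s) + 1
      + (r.colA p s c0 x y M + r'.colA p s c0 x' y' M' + r.colB p s c0 (M + M') : ℕ)
      - 8 * ((e : ℤ) + 1) * M - 8 * ((e' : ℤ) + 1) * M')
    (fun d hdD hdN => by
      have h2 := cnt_fam2 d hx hy (by rw [hdD]; exact hD) he hx' hy' (by rw [hdD]; exact hD') he'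
        hd (by rw [hdD]; exact hpD) r.o r'.o
      rw [sum_cols2 d hdN r r' x y M x' y' M', hdD] at h2
      have h3 : ((d.cnt (Aset p x M ∩ Aset p x' M') r.o
          + (8 * (e + 1) * M + 8 * (e' + 1) * M') : ℕ) : ℤ)
          ≤ ((8 * (27 * s) + 1 + (r.colA p s c0 x y M + r'.colA p s c0 x' y' M'
            + r.colB p s c0 (M + M')) : ℕ) : ℤ) := by exact_mod_cast h2
      push_cast at h3 ⊢
      linarith)
  linarith

/-- one interval: a family with a linear profile -/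
theorem locRange_fam {c0 : ℕ} (hR : RedAllC c0) {an ad bn bd : ℕ} (had : 0 < ad) (hbd : 0 < bd)
    (han : 0 < an) (α β : ℤ) (r : Ord) (e : ℕ) (he : 1 ≤ e) (x y M : ℕ → ℕ → ℕ)
    (h : ∀ s p : ℕ, 5 ≤ p → c0 + 2 ≤ s → an * s ≤ ad * p → bd * p < bn * s →
      x s p + M s p ≤ p ∧ y s p + M s p ≤ p ∧ p * e + x s p + y s p + M s p = 27 * s ∧
      p ≤ 27 * s ∧
      (r.cols p s c0 (x s p) (y s p) (M s p) : ℤ) + 65 * s + p + 8 * c0 + 1
        ≤ α * s + β * p + (60 * c0 + 1 : ℕ) + 8 * ((e : ℤ) + 1) * M s p) :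
    LocRange H579.parA c0 ((an : ℝ) / ad) ((bn : ℝ) / bd) (fun q => α + β * q) := by
  refine locRange_lin had hbd han α β (60 * c0 + 1) fun p hp hp5 s X hX hN hsc n1 n2 σ hσ hdet => ?_
  obtain ⟨h1, h2, h3, h4, h5⟩ := h s p hp5 hsc n1 n2
  have g := fam_val hp5 hX hN h4 hσ hdet (hR p hp5 s X hX h4 hN) r h1 h2 h3 he
  linarith

/-- two intervals -/
theorem locRange_fam2 {c0 : ℕ} (hR : RedAllC c0) {an ad bn bd : ℕ} (had : 0 < ad) (hbd : 0 < bd)
    (han : 0 < an) (α β : ℤ) (r r' : Ord) (e e' : ℕ) (he : 1 ≤ e) (he' : 1 ≤ e')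
    (x y M x' y' M' : ℕ → ℕ → ℕ)
    (h : ∀ s p : ℕ, 5 ≤ p → c0 + 2 ≤ s → an * s ≤ ad * p → bd * p < bn * s →
      (x s p + M s p ≤ p ∧ y s p + M s p ≤ p ∧ p * e + x s p + y s p + M s p = 27 * s) ∧
      (x' s p + M' s p ≤ p ∧ y' s p + M' s p ≤ p ∧ p * e' + x' s p + y' s p + M' s p = 27 * s) ∧
      x s p + M s p ≤ x' s p ∧ p ≤ 27 * s ∧
      ((r.colA p s c0 (x s p) (y s p) (M s p) + r'.colA p s c0 (x' s p) (y' s p) (M' s p)
          + r.colB p s c0 (M s p + M' s p) : ℕ) : ℤ) + 65 * s + p + 8 * c0 + 1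
        ≤ α * s + β * p + (60 * c0 + 1 : ℕ) + 8 * ((e : ℤ) + 1) * M s p
          + 8 * ((e' : ℤ) + 1) * M' s p) :
    LocRange H579.parA c0 ((an : ℝ) / ad) ((bn : ℝ) / bd) (fun q => α + β * q) := by
  refine locRange_lin had hbd han α β (60 * c0 + 1) fun p hp hp5 s X hX hN hsc n1 n2 σ hσ hdet => ?_
  obtain ⟨⟨h1, h2, h3⟩, ⟨h1', h2', h3'⟩, hd, h4, h5⟩ := h s p hp5 hsc n1 n2
  have g := fam_val2 hp5 hX hN h4 hσ hdet (hR p hp5 s X hX h4 hN) r r' h1 h2 h3 he h1' h2' h3'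
    he' hd
  push_cast at h5 g ⊢
  linarith

end Vale.Agent.P030.H361
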